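import Vale.Agent.P192.R2.H360.R.All
import Vale.Agent.P192.R2.H102.PruneU
import Vale.Agent.P192.R2.H51L.IrrTop
import Vale.Agent.P192.R2.H730.LocGen
import Vale.Agent.P192.R2.H51L.VCUni
import Vale.Agent.P192.R2.H503.PartB2

/-!
# P192: Turing machines over groups, full groups, products of virtually cyclic actions

`F` is the class of groups `G` such that every homomorphism from a finitely presented periodic
group to `G` has finite image. Part (1): groups of reversible Turing machines over any group.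
Part (2): topological full groups of strongly irreducible subshifts over any group. Part (3):
actions which look, in the square of a fixed radius around each point, like permutations of a
product of two sets of integers with displacement given by finitely many colours of the rows and of
the columns. Parts (4), (5): products of two actions of virtually cyclic groups. Part (6): conformal
bijections of compact open subsets of ultrametric spaces over local fields. Part (7): almost
automorphisms of trees of words.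
-/

namespace Vale.Agent.Results.P192.FullGroups

open Vale.Agent.P192 Vale.Agent.P192.H503 Vale.Agent.P192.R2.H360.R

/-- **Turing machines, full groups and almost automorphisms.** `FPB G` says that every homomorphism
from a finitely presented periodic group to `G` has finite image, `Bur G` the same for finitely
generated periodic groups, `Mach T g` that `g` is a machine with window `T` on the configurations
(tape, head, state), `Beg v ξ` that the infinite word `ξ` begins with `v`, `Sec g v f` that `f` is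
the section of `g` at the word `v`. -/
theorem result :
    -- (1) reversible Turing machines on `H`
    (∀ (H A Q : Type) [Group H] [Finite A] [Nonempty A] [Finite Q] [Nonempty Q],
      FPB H ↔ ∀ (G : Type) [Group G] [Group.IsFinitelyPresented G], (∀ x : G, IsOfFinOrder x) →
        ∀ ρ : G →* Equiv.Perm ((H → A) × H × Q),
        (∀ g, ∃ T : Finset H, Mach T (ρ g)) → Finite ρ.range) ∧
    -- (2) strongly irreducible subshifts over `H`
    (∀ (H : Type) [Group H] (A : Type) [Finite A] [TopologicalSpace A] [DiscreteTopology A]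
      (X : Set (H → A)), IsClosed X → (∀ ω ∈ X, ∀ h : H, (fun k => ω (k * h)) ∈ X) →
      (∀ h : H, h ≠ 1 → ∀ U : Set (H → A), IsOpen U → (U ∩ X).Nonempty →
        ∃ ω ∈ U ∩ X, (fun k => ω (k * h)) ≠ ω) →
      (∃ o ∈ X, {σ : H → A | ∃ h, σ = fun k => o (k * h)}.Finite) →
      (∃ B : Finset H, ∀ x ∈ X, ∀ y ∈ X, ∀ K : Finset H, ∃ z ∈ X, (∀ k ∈ K, z k = x k) ∧
        ∀ k, (∀ b ∈ B, b * k ∉ K) → z k = y k) →
      (FPB H ↔ ∀ (G : Type) [Group G] [Group.IsFinitelyPresented G], (∀ x : G, IsOfFinOrder x) →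
        ∀ ρ : G →* Equiv.Perm X, (∀ g, ∃ c : X → H, IsLocallyConstant c ∧
          ∀ ω : X, ((ρ g ω : X) : H → A) = fun k => (ω : H → A) (k * c ω)) →
        Finite ρ.range)) ∧
    -- (3) actions of product type at a bounded scale
    (∀ (G : Type) [Group G] [Group.IsFinitelyPresented G], (∀ x : G, IsOfFinOrder x) →
      ∀ S : Set G, Subgroup.closure S = ⊤ → ∀ m : ℕ,
      ∃ (R : ℕ) (N : Subgroup G), N.Normal ∧ N.FiniteIndex ∧
        ∀ (Y : Type) (ρ : G →* Equiv.Perm Y),
        (∀ y : Y, ∃ (D E : Set ℤ) (π : ℤ × ℤ → Y), (0 : ℤ) ∈ D ∧ (0 : ℤ) ∈ E ∧ π (0, 0) = y ∧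
          (∀ z z', z.1 ∈ D → z.2 ∈ E → z'.1 ∈ D → z'.2 ∈ E → |z.1| ≤ (R : ℤ) →
            |z.2| ≤ (R : ℤ) → |z'.1| ≤ (R : ℤ) → |z'.2| ≤ (R : ℤ) → π z = π z' → z = z') ∧
          ∀ s, (s ∈ S ∨ s⁻¹ ∈ S) → ∃ (a b : ℤ → Fin m) (f : Fin m → Fin m → ℤ × ℤ),
            (∀ α β, |(f α β).1| ≤ m ∧ |(f α β).2| ≤ m) ∧
            ∀ z, z.1 ∈ D → z.2 ∈ E → |z.1| ≤ (R : ℤ) → |z.2| ≤ (R : ℤ) →
              z.1 + (f (a z.1) (b z.2)).1 ∈ D ∧ z.2 + (f (a z.1) (b z.2)).2 ∈ E ∧
              ρ s (π z) = π (z.1 + (f (a z.1) (b z.2)).1, z.2 + (f (a z.1) (b z.2)).2)) →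
        ∀ g ∈ N, ρ g = 1) ∧
    -- (4) products of actions of two virtually cyclic groups, uniform form
    (∀ (G : Type) [Group G] [Group.IsFinitelyPresented G], (∀ x : G, IsOfFinOrder x) →
      ∀ S : Set G, Subgroup.closure S = ⊤ →
      ∀ (L M : Type) [Group L] [Group M] (t : L) (r : M), (Subgroup.zpowers t).FiniteIndex →
      (Subgroup.zpowers r).FiniteIndex → ∀ (m : ℕ) (K : Set (L × M)), K.Finite →
      ∃ N : Subgroup G, N.Normal ∧ N.FiniteIndex ∧
        ∀ (U V : Type) [MulAction L U] [MulAction M V] (ρ : G →* Equiv.Perm (U × V)),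
        (∀ s, (s ∈ S ∨ s⁻¹ ∈ S) →
          ∃ (a : U → Fin m) (b : V → Fin m) (f : Fin m → Fin m → L × M), (∀ α β, f α β ∈ K) ∧
            ∀ u v, ρ s (u, v) = ((f (a u) (b v)).1 • u, (f (a u) (b v)).2 • v)) →
        ∀ g ∈ N, ρ g = 1) ∧
    -- (5) topological full groups of products of two actions of virtually cyclic groups
    (∀ (G : Type) [Group G] [Group.IsFinitelyPresented G], (∀ x : G, IsOfFinOrder x) →
      ∀ (L M : Type) [Group L] [Group M] (t : L) (r : M), (Subgroup.zpowers t).FiniteIndex →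
      (Subgroup.zpowers r).FiniteIndex →
      ∀ (U V : Type) [TopologicalSpace U] [TopologicalSpace V] [CompactSpace U] [CompactSpace V]
        [MulAction L U] [MulAction M V] (ρ : G →* Equiv.Perm (U × V)),
      (∀ g, ∃ c : U × V → L × M, IsLocallyConstant c ∧
        ∀ z, ρ g z = ((c z).1 • z.1, (c z).2 • z.2)) → Finite ρ.range) ∧
    -- (6) conformal `C^1` bijections over local fields
    (∀ (K : Type) [NontriviallyNormedField K] [IsUltrametricDist K] [LocallyCompactSpace K]
      (V : Type) [NormedAddCommGroup V] [NormedSpace K V] [IsUltrametricDist V]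
      [FiniteDimensional K V] (U : Set V), IsOpen U → IsCompact U →
      ∀ (Γ : Type) [Group Γ], Group.FG Γ → (∀ x : Γ, IsOfFinOrder x) →
      ∀ ρ : Γ →* Equiv.Perm U, (∀ (g : Γ) (x : U), ∃ (D : V →ₗ[K] V) (c : ℝ),
        0 < c ∧ (∀ v, ‖D v‖ = c * ‖v‖) ∧ ∀ ε : ℝ, 0 < ε → ∃ δ : ℝ, 0 < δ ∧ ∀ y z : U,
          ‖(y : V) - x‖ < δ → ‖(z : V) - x‖ < δ →
            ‖((ρ g y : V) - ρ g z) - D ((y : V) - z)‖ ≤ ε * ‖(y : V) - z‖) →
      (∃ M : Subgroup Γ, M.FiniteIndex ∧
        ∀ g ∈ M, ∀ q : ℕ, q.Prime → q ∣ orderOf (ρ g) → (q : K) = 0) ∧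
      (∀ g, ρ g ≠ 1 → ∃ L : Subgroup Γ, L.Normal ∧ L.FiniteIndex ∧ g ∉ L) ∧
      ((∀ g : Γ, ∃ n : ℕ, (n : K) ≠ 0 ∧ (ρ g) ^ n = 1) → Finite ρ.range)) ∧
    -- (7) the group of almost automorphisms with sections in `A`
    (∀ (X : Type) [Finite X] (A : Subgroup (Equiv.Perm (List X))),
      (∀ a ∈ A, ∀ w, (a w).length = w.length) → (∀ a ∈ A, ∀ v, ∃ k ∈ A, Sec a v k) →
      ∃ V : Subgroup (Equiv.Perm (ℕ → X)), (FPB A → FPB V) ∧ (Bur A → Bur V) ∧
        ∀ g, g ∈ V ↔ ∃ n, ∀ v : List X, v.length = n → ∃ u : List X, ∃ a ∈ A,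
          ∀ (ξ : ℕ → X) (w : List X), Beg (v ++ w) ξ ↔ Beg (u ++ a w) (g ξ)) := by
  refine ⟨?_, ?_, ?_, ?_, ?_, ?_, ?_⟩
  · exact fun H A Q _ _ _ _ _ => Vale.Agent.P192.R2.H360.R.rtm H A Q
  · intro H _ A _ _ _ X h1 h2 h3 h4 h5
    exact Vale.Agent.P192.R2.H51L.irr_full_iff_of
      (fun G _ _ => Vale.Agent.P192.R2.H102.prune_uniform G) H A X h1 h2 h3 h4 h5
  · intro G _ _ hG S hS m
    exact Vale.Agent.P192.R2.H360.local_gen G hG S hS m
  · intro G _ _ hG S hS L M _ _ t r ht hr m K hK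
    exact Vale.Agent.P192.R2.H51L.vc_uniform G hG S hS L M t r ht hr m K hK
  · intro G _ _ hG L M _ _ t r ht hr U V _ _ _ _ _ _ ρ h
    exact Vale.Agent.P192.R2.H360.vc_top_full_of
      (fun E _ t ht => Vale.Agent.P192.R2.H360.vc_coarse E t ht)
      Vale.Agent.P192.R2.H51L.lstmt G hG L M t r ht hr U V ρ h
  · exact partB2.1
  · exact partB2.2.2.1

end Vale.Agent.Results.P192.FullGroups
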