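import Vale.Agent.P192.R2.H584.PGrp

/-!
# P192: finitely presented groups mapping onto Golod groups
-/

namespace Vale.Agent.Results.P192.GolodCovers

open Vale.Agent.P192.H584 Polynomial

universe u v w

/-- **Finitely presented groups mapping onto Golod groups.** See
`Vale.Agent.P192.R2.H584.Defs` for the definitions. -/
theorem result :
    (∀ (F : Type u) [Field F] (I : Type v) [Fintype I] (R : ℕ → Finset (FreeAlgebra F I))
      (n d : ℕ), Sparse R n d → 1 ≤ n → 6 ≤ d → n * d < 2 ^ (d - 1) →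
      3 * n + 2 ≤ Fintype.card I →
      (∀ r : ℕ, 1 ≤ r → MatCovers.{u, v, w} R r) ∧
      (Units1 R → GInf R ∧ Covers.{u, v, w} R)) ∧
    (∀ (p : ℕ) [Fact p.Prime] (F : Type u) [Field F] [CharP F p] [Countable F] (I : Type v)
      [Fintype I], 5 ≤ Fintype.card I →
      ∃ R : ℕ → Finset (FreeAlgebra F I), Sparse R 1 6 ∧ AugNil R ∧ Units1 R ∧ GInf R ∧
        GPGroup R p ∧ Covers.{u, v, w} R) := by
  have key : ∀ (F : Type u) [Field F] (Γ : Type w) [Group Γ], Group.IsFinitelyPresented Γ →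
      (∃ (K : ℕ) (ρ : Γ →* (Matrix (Fin K) (Fin K) F[X])ˣ), ¬ Finite ρ.range) → InfLin F Γ := by
    intro F _ Γ _ hΓ h
    obtain ⟨K, ρ, hρ⟩ := h
    exact ⟨⟨K, ρ, hρ⟩, not_forall.mp (not_periodic hΓ ρ hρ)⟩
  refine ⟨?_, ?_⟩
  · intro F _ I _ R n d hS hn h6 hnd hI
    obtain ⟨hR, hcard, hd⟩ := hS
    refine ⟨?_, fun hu => ⟨?_, ?_⟩⟩
    · intro r hr Γ _ hΓ φ s hs hφ
      exact key F Γ hΓ (exists_linear hR hcard hd h6 hn hnd hI hΓ hr φ s hs hφ)
    · exact golod_infinite hR hcard hd h6 hn hnd hI hu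
    · intro Γ _ hΓ φ hφ
      exact key F Γ hΓ (exists_linear_group hR hcard hd h6 hn hnd hI hu hΓ φ hφ)
  · intro p _ F _ _ _ I _ hI
    obtain ⟨R, hR, hcard, hd, hnil⟩ :=
      exists_golod (F := F) (X := I) (Fact.out : p.Prime).one_lt
    have hnil' : ∀ a, aug F I a = 0 → IsNilpotent (quo R a) := fun a ha => by
      obtain ⟨m, hm⟩ := hnil a ha
      exact ⟨_, hm⟩
    have hu := fun i => isUnit_one_add hnil' i
    refine ⟨R, ⟨hR, hcard, hd⟩, hnil', hu, ?_, ⟨golodGroup_fg R,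
      isPGroup_golod hR (hd 0 (by norm_num)) hnil'⟩, ?_⟩
    · exact golod_infinite hR hcard hd le_rfl le_rfl (by norm_num) (by omega) hu
    · intro Γ _ hΓ φ hφ
      exact key F Γ hΓ (exists_linear_group hR hcard hd le_rfl le_rfl (by norm_num) (by omega)
        hu hΓ φ hφ)

end Vale.Agent.Results.P192.GolodCovers
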