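import Vale.Agent.P192.R2.H577.Comb

namespace Vale.Agent.Results.P192.QuadraticGrowth

open Vale.Agent.P192.H437 Vale.Agent.P192.R2.H577

theorem result (G : Type) [Group G] [Group.IsFinitelyPresented G] (hG : IsMulTorsion G) :
    (∀ S : Set G, S.Finite → Subgroup.closure S = ⊤ → ∃ c : ℝ, 0 < c ∧ ∃ C : ℕ,
      ∀ (X : Type) [MulAction G X] [MulAction.IsPretransitive G X] (x : X) (n k : ℕ),
        2 ^ (2 ^ (C * (k + 1))) ≤ n → (∃ y, ¬ hop S n x y) →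
        ∃ y, hop S n x y ∧ grid S c k y ∧
          (∀ j : ℕ, narrow (fun x y => ∃ s ∈ S, s • x = y) {z | hop S k y z} j → c * k < j) ∧
          ∀ b : ℕ, {z | hop S k y z}.encard ≤ b → c * (k : ℝ) ^ 2 ≤ b) ∧
    (∀ S : Set G, Subgroup.closure S = ⊤ → ∃ c : ℝ, 0 < c ∧ ∃ C : ℕ,
      ∀ (X : Type) [MulAction G X] [MulAction.IsPretransitive G X] (x : X) (n k : ℕ),
        (k + 2) ^ ((k + 2) ^ C) ≤ n → (∃ y, ¬ hop S n x y) →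
        ∃ y, hop S n x y ∧ ∀ b : ℕ, {z | hop S k y z}.encard ≤ b → c * (k : ℝ) ^ 2 ≤ b) ∧
    (∀ S : Set G, S.Finite → Subgroup.closure S = ⊤ → ∃ c : ℝ, 0 < c ∧ ∀ k : ℕ,
      ∃ N : Subgroup G, N.Normal ∧ N.FiniteIndex ∧
        ∀ (X : Type) [MulAction G X], (∀ m : X, ¬ grid S c k m) → ∀ g ∈ N, ∀ x : X, g • x = x) ∧
    (∀ S : Set G, Subgroup.closure S = ⊤ → ∃ c : ℝ, 0 < c ∧ ∀ n k : ℕ, (k : ℝ) ≤ c * n →
      ∃ N : Subgroup G, N.Normal ∧ N.FiniteIndex ∧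
        ∀ (X : Type) [MulAction G X],
          (∀ m : X, narrow (fun x y => ∃ s ∈ S, s • x = y) {y | hop S n m y} k) →
          ∀ g ∈ N, ∀ x : X, g • x = x) ∧
    (∀ S : Set G, Subgroup.closure S = ⊤ → ∃ c : ℝ, 0 < c ∧ ∀ n b : ℕ, (b : ℝ) < c * (n : ℝ) ^ 2 →
      ∃ N : Subgroup G, N.Normal ∧ N.FiniteIndex ∧
        ∀ (X : Type) [MulAction G X], (∀ x : X, {y | hop S n x y}.encard ≤ b) →
          ∀ g ∈ N, ∀ x : X, g • x = x) ∧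
    (∀ S : Set G, S.Finite → Subgroup.closure S = ⊤ → ∃ c : ℝ, 0 < c ∧ ∀ n k : ℕ, (k : ℝ) ≤ c * n →
      ∃ N : Subgroup G, N.Normal ∧ N.FiniteIndex ∧
        ∀ (X : Type) [MulAction G X],
          (∀ (m : X) (C : Set X), (∀ x ∈ C, ∀ y ∈ C, linked S 1 C x y) →
            (∀ x ∈ C, ¬ hop S n m x) → ∃ A : Set X, C ⊆ A ∧ (∀ a ∈ A, ¬ hop S (n / 2) m a) ∧
              {x | x ∈ A ∧ ∃ s ∈ S, s • x ∉ A ∨ s⁻¹ • x ∉ A}.encard ≤ k) →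
          ∀ g ∈ N, ∀ x : X, g • x = x) ∧
    (∀ S : Set G, Subgroup.closure S = ⊤ → ∀ c : ℕ, ∃ ε : ℝ, 0 < ε ∧
      ∀ n b : ℕ, (b : ℝ) < ε * (n : ℝ) ^ 2 → ∃ N : Subgroup G, N.Normal ∧ N.FiniteIndex ∧
        ∀ (X : Type) (Γ : SimpleGraph X), (∀ x : X, {y | Γ.edist x y ≤ n}.encard ≤ b) →
          ∀ ρ : G →* Equiv.Perm X, (∀ s ∈ S, ∀ x : X, Γ.edist x (ρ s x) ≤ c) →
            ∀ g ∈ N, ρ g = 1) ∧
    (∀ S : Set G, Subgroup.closure S = ⊤ → ∀ Δ c : ℕ, ∃ ε : ℝ, 0 < ε ∧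
      ∀ n k : ℕ, (k : ℝ) ≤ ε * n → ∃ N : Subgroup G, N.Normal ∧ N.FiniteIndex ∧
        ∀ (X : Type) (Γ : SimpleGraph X), (∀ x : X, (Γ.neighborSet x).encard ≤ Δ) →
          (∀ x : X, narrow Γ.Adj {y | Γ.edist x y ≤ n} k) →
          ∀ ρ : G →* Equiv.Perm X, (∀ s ∈ S, ∀ x : X, Γ.edist x (ρ s x) ≤ c) →
            ∀ g ∈ N, ρ g = 1) ∧
    (∀ (X : Type) (Γ : SimpleGraph X) (b : ℕ → ℕ),
      (∀ (x : X) (n : ℕ), {y | Γ.edist x y ≤ n}.encard ≤ b n) →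
      (∀ ε : ℝ, 0 < ε → ∃ᶠ n : ℕ in Filter.atTop, (b n : ℝ) ≤ ε * (n : ℝ) ^ 2) →
      ∀ ρ : G →* Equiv.Perm X, (∀ g : G, ∃ c : ℕ, ∀ x : X, Γ.edist x (ρ g x) ≤ c) →
        Finite ρ.range) ∧
    (∀ (X : Type) (Γ : SimpleGraph X) (Δ : ℕ), (∀ x : X, (Γ.neighborSet x).encard ≤ Δ) →
      ∀ b : ℕ → ℕ, (∀ (x : X) (n : ℕ), narrow Γ.Adj {y | Γ.edist x y ≤ n} (b n)) →
      (∀ ε : ℝ, 0 < ε → ∃ᶠ n : ℕ in Filter.atTop, (b n : ℝ) ≤ ε * n) →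
      ∀ ρ : G →* Equiv.Perm X, (∀ g : G, ∃ c : ℕ, ∀ x : X, Γ.edist x (ρ g x) ≤ c) →
        Finite ρ.range) ∧
    (∀ (F : Type) [Group F] (A : Set F), Subgroup.closure A = ⊤ →
      ∀ (Y : Type) [MulAction F Y] (b : ℕ → ℕ),
      (∀ (y : Y) (n : ℕ), {z | hop A n y z}.encard ≤ b n) →
      (∀ ε : ℝ, 0 < ε → ∃ᶠ n : ℕ in Filter.atTop, (b n : ℝ) ≤ ε * (n : ℝ) ^ 2) →
      ∀ ρ : G →* Equiv.Perm Y,
        (∀ g : G, ∃ E : Set F, E.Finite ∧ ∀ y : Y, ∃ f ∈ E, ρ g y = f • y) →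
        Finite ρ.range) := by
  refine ⟨?_, ?_, ?_, ?_, ?_, ?_, ?_, ?_, ?_, ?_, ?_⟩
  · intro S hSf hS
    exact all_local.{0, 0} G hG S hSf hS
  · intro S hS
    exact growth_local.{0, 0} G hG S hS
  · intro S hSf hS
    exact grid_uniform.{0, 0} G hG S hSf hS
  · intro S hS
    exact tw_uniform.{0, 0} G hG S hS
  · intro S hS
    exact growth_uniform.{0, 0} G hG S hS
  · intro S hSf hS
    exact cuts_uniform.{0, 0} G hG S hSf hS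
  · intro S hS c
    exact wob_growth.{0, 0} G hG S hS c
  · intro S hS Δ c
    exact wob_tw.{0, 0} G hG S hS Δ c
  · intro X Γ b hb ho ρ hρ
    exact wob_growth_image G hG X Γ b hb ho ρ hρ
  · intro X Γ Δ hΔ b hb ho ρ hρ
    exact wob_tw_image G hG X Γ Δ hΔ b hb ho ρ hρ
  · intro F _ A hA Y _ b hb ho ρ hρ
    exact full_image G hG F A hA Y b hb ho ρ hρ

end Vale.Agent.Results.P192.QuadraticGrowth
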