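import Vale.Agent.P192.R2.H584.PresMain

/-!
# P192: finitely presented groups mapping onto groups with sparse presentations
-/

namespace Vale.Agent.Results.P192.SparsePresentations

open Vale.Agent.P192.H584

universe u v w

/-- **Sparse presentations.** A group `G` given by sparse relators deep in the Zassenhaus
filtration is infinite, and each finitely presented group with a homomorphism to `G` whose image
has finite index has an infinite image in some `GL_K(F_p[t])` and an element of infinite order.
Some of these groups `G` are `p`-groups. -/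
theorem result (p : ℕ) [Fact p.Prime] (X : Type v) [Fintype X] [DecidableEq X] (c : ℕ)
    (hc : Fintype.card X < p ^ c) :
    (∀ n : ℕ, 1 ≤ n → 3 * n + 2 ≤ Fintype.card X →
      ∀ (ι : Type u) (g : ι → FreeGroup X) (d : ι → ℕ), SparseRel p c n g d →
        Infinite (PresentedGroup (Set.range g)) ∧
        ∀ (Γ : Type w) [Group Γ], Group.IsFinitelyPresented Γ →
          ∀ φ : Γ →* PresentedGroup (Set.range g), φ.range.FiniteIndex →
            (∃ (K : ℕ) (ρ : Γ →* GL (Fin K) (Polynomial (ZMod p))), ¬ Finite ρ.range) ∧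
              ∃ γ : Γ, ¬ IsOfFinOrder γ) ∧
    ∃ (g : ℕ → FreeGroup X) (d : ℕ → ℕ), SparseRel p c 1 g d ∧
      IsPGroup p (PresentedGroup (Set.range g)) := by
  refine ⟨fun n hn hX ι g d h => ?_, ?_⟩
  · obtain ⟨h1, h2⟩ := pres_covers p hn hX hc h.1 h.2.1 h.2.2
    exact ⟨h1, fun Γ _ hΓ φ hφ => h2 Γ hΓ φ hφ⟩
  · obtain ⟨g, d, h1, h2, h3, h4⟩ := exists_sparse_pgroup (X := X) p c
    exact ⟨g, d, ⟨h1, h2, h3⟩, h4⟩

end Vale.Agent.Results.P192.SparsePresentations
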